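import Vale.Agent.Lib.P100.H28.Interior

/-!
# P100 (helper28): the strict minimum principle on annuli, with radial barriers
-/

namespace Vale.Agent.Lib.P100.H28

open Filter Topology Set

theorem continuousAt_bar_norm {n : ℕ} (a ε : ℝ) (y : EuclideanSpace ℝ (Fin n)) (hy : y ≠ 0) :
    ContinuousAt (fun y : EuclideanSpace ℝ (Fin n) => bar n a ε (‖y‖ ^ 2)) y := by
  have hs : 0 < ‖y‖ ^ 2 := by positivity
  have h1 : ContinuousAt (bar n a ε) (‖y‖ ^ 2) := (hasDerivAt_bar n a ε hs).continuousAt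
  have h2 : ContinuousAt (fun y : EuclideanSpace ℝ (Fin n) => ‖y‖ ^ 2) y := by fun_prop
  exact ContinuousAt.comp (f := fun y : EuclideanSpace ℝ (Fin n) => ‖y‖ ^ 2) h1 h2

/-- Strict minimum principle on the annulus `r1 ≤ ‖x‖ ≤ r2` for `u + barrier`. -/
theorem annulus_min {n : ℕ} (u : EuclideanSpace ℝ (Fin n) → ℝ)
    (hu : ContDiffOn ℝ 2 u {x | x ≠ 0}) (a ε β r1 r2 : ℝ) (hr1 : 0 < r1)
    (hsup : ∀ x : EuclideanSpace ℝ (Fin n), r1 < ‖x‖ → ‖x‖ < r2 →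
      Laplacian.laplacian u x + 2 * a * ((n:ℝ) - 2) / ‖x‖ ^ 2 < 0)
    (hb1 : ∀ x : EuclideanSpace ℝ (Fin n), ‖x‖ = r1 → β ≤ u x + bar n a ε (‖x‖ ^ 2))
    (hb2 : ∀ x : EuclideanSpace ℝ (Fin n), ‖x‖ = r2 → β ≤ u x + bar n a ε (‖x‖ ^ 2))
    (x : EuclideanSpace ℝ (Fin n)) (hx1 : r1 ≤ ‖x‖) (hx2 : ‖x‖ ≤ r2) :
    β ≤ u x + bar n a ε (‖x‖ ^ 2) := by
  set K : Set (EuclideanSpace ℝ (Fin n)) := {y | r1 ≤ ‖y‖ ∧ ‖y‖ ≤ r2} with hK
  have hne : ∀ y ∈ K, y ≠ 0 := by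
    intro y hy h0
    have h1 : r1 ≤ ‖y‖ := hy.1
    rw [h0, norm_zero] at h1
    linarith
  have hclosed : IsClosed K := by
    have h1 : IsClosed {y : EuclideanSpace ℝ (Fin n) | r1 ≤ ‖y‖} :=
      isClosed_le continuous_const continuous_norm
    have h2 : IsClosed {y : EuclideanSpace ℝ (Fin n) | ‖y‖ ≤ r2} :=
      isClosed_le continuous_norm continuous_const
    exact h1.inter h2
  have hbdd : Bornology.IsBounded K := by
    refine (Metric.isBounded_closedBall (x := (0 : EuclideanSpace ℝ (Fin n))) (r := r2)).subset ?_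
    intro y hy
    simpa [Metric.mem_closedBall, dist_zero_right] using hy.2
  have hcomp : IsCompact K := Metric.isCompact_of_isClosed_isBounded hclosed hbdd
  have hcont : ContinuousOn (fun y => u y + bar n a ε (‖y‖ ^ 2)) K := by
    intro y hy
    have hy0 := hne y hy
    have hc1 : ContinuousAt u y :=
      (hu.continuousOn).continuousAt (isOpen_ne_zero.mem_nhds hy0)
    exact (hc1.add (continuousAt_bar_norm a ε y hy0)).continuousWithinAt
  obtain ⟨x0, hx0K, hx0min⟩ := hcomp.exists_isMinOn ⟨x, hx1, hx2⟩ hcont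
  have hle : u x0 + bar n a ε (‖x0‖ ^ 2) ≤ u x + bar n a ε (‖x‖ ^ 2) := hx0min ⟨hx1, hx2⟩
  by_cases h1 : ‖x0‖ = r1
  · exact (hb1 x0 h1).trans hle
  by_cases h2 : ‖x0‖ = r2
  · exact (hb2 x0 h2).trans hle
  exfalso
  have hlt1 : r1 < ‖x0‖ := lt_of_le_of_ne hx0K.1 (Ne.symm h1)
  have hlt2 : ‖x0‖ < r2 := lt_of_le_of_ne hx0K.2 h2
  have hopen : IsOpen {y : EuclideanSpace ℝ (Fin n) | r1 < ‖y‖ ∧ ‖y‖ < r2} := by
    have h1 : IsOpen {y : EuclideanSpace ℝ (Fin n) | r1 < ‖y‖} :=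
      isOpen_lt continuous_const continuous_norm
    have h2 : IsOpen {y : EuclideanSpace ℝ (Fin n) | ‖y‖ < r2} :=
      isOpen_lt continuous_norm continuous_const
    exact h1.inter h2
  have hKn : K ∈ 𝓝 x0 := by
    refine Filter.mem_of_superset (hopen.mem_nhds ⟨hlt1, hlt2⟩) ?_
    intro y hy
    exact ⟨hy.1.le, hy.2.le⟩
  have hloc : IsLocalMin (fun y => u y + bar n a ε (‖y‖ ^ 2)) x0 := hx0min.isLocalMin hKn
  have := laplacian_add_nonneg u hu x0 (hne x0 hx0K) a ε hloc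
  linarith [hsup x0 hlt1 hlt2]

end Vale.Agent.Lib.P100.H28
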