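import Vale.Agent.Lib.P100.H28.OneDim

/-!
# P100 (helper28): radial barriers and the interior minimum inequality
-/

namespace Vale.Agent.Lib.P100.H28

open Filter Topology Set

/-- The barrier profile `a log s + ε s^((2-n)/2)`, to be evaluated at `s = ‖x‖²`. -/
noncomputable def bar (n : ℕ) (a ε : ℝ) (s : ℝ) : ℝ :=
  a * Real.log s + ε * s ^ ((2 - (n:ℝ)) / 2)

/-- First derivative of the barrier profile. -/
noncomputable def bar1 (n : ℕ) (a ε : ℝ) (s : ℝ) : ℝ :=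
  a * s⁻¹ + ε * (((2 - (n:ℝ)) / 2) * s ^ ((2 - (n:ℝ)) / 2 - 1))

/-- Second derivative of the barrier profile. -/
noncomputable def bar2 (n : ℕ) (a ε : ℝ) (s : ℝ) : ℝ :=
  a * (-(s ^ 2)⁻¹) +
    ε * (((2 - (n:ℝ)) / 2) * (((2 - (n:ℝ)) / 2 - 1) * s ^ ((2 - (n:ℝ)) / 2 - 1 - 1)))

theorem hasDerivAt_bar (n : ℕ) (a ε : ℝ) {s : ℝ} (hs : 0 < s) :
    HasDerivAt (bar n a ε) (bar1 n a ε s) s := by
  unfold bar bar1
  exact ((Real.hasDerivAt_log hs.ne').const_mul a).add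
    ((Real.hasDerivAt_rpow_const (Or.inl hs.ne')).const_mul ε)

theorem hasDerivAt_bar1 (n : ℕ) (a ε : ℝ) {s : ℝ} (hs : 0 < s) :
    HasDerivAt (bar1 n a ε) (bar2 n a ε s) s := by
  unfold bar1 bar2
  exact ((hasDerivAt_inv hs.ne').const_mul a).add
    (((Real.hasDerivAt_rpow_const (Or.inl hs.ne')).const_mul _).const_mul ε)

/-- The quadratic `s0 + 2 c t + t^2`, which is `‖x0 + t e_i‖²`. -/
noncomputable def quad (s0 c : ℝ) (t : ℝ) : ℝ := s0 + 2 * c * t + t ^ 2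

theorem hasDerivAt_quad (s0 c t : ℝ) : HasDerivAt (quad s0 c) (2 * c + 2 * t) t := by
  unfold quad
  have h := (((hasDerivAt_id t).const_mul (2 * c)).const_add s0).add (hasDerivAt_pow 2 t)
  refine h.congr_deriv ?_
  simp

theorem quad_zero (s0 c : ℝ) : quad s0 c 0 = s0 := by simp [quad]

theorem eventually_quad_pos {s0 : ℝ} (c : ℝ) (hs0 : 0 < s0) :
    ∀ᶠ t in 𝓝 (0:ℝ), 0 < quad s0 c t := by
  have hc : ContinuousAt (quad s0 c) 0 := (hasDerivAt_quad s0 c 0).continuousAt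
  have : ∀ᶠ t in 𝓝 (0:ℝ), quad s0 c t ∈ Ioi (0:ℝ) :=
    hc.eventually (Ioi_mem_nhds (by simpa [quad_zero] using hs0))
  exact this

theorem hasDerivAt_bar_quad (n : ℕ) (a ε s0 c : ℝ) {t : ℝ} (ht : 0 < quad s0 c t) :
    HasDerivAt (fun t => bar n a ε (quad s0 c t))
      (bar1 n a ε (quad s0 c t) * (2 * c + 2 * t)) t :=
  (hasDerivAt_bar n a ε ht).comp t (hasDerivAt_quad s0 c t)

theorem hasDerivAt_bar1_quad (n : ℕ) (a ε c : ℝ) {s0 : ℝ} (hs0 : 0 < s0) :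
    HasDerivAt (fun t => bar1 n a ε (quad s0 c t) * (2 * c + 2 * t))
      (bar2 n a ε s0 * (2 * c) ^ 2 + bar1 n a ε s0 * 2) 0 := by
  have h1 : HasDerivAt (fun t => bar1 n a ε (quad s0 c t))
      (bar2 n a ε s0 * (2 * c + 2 * 0)) 0 := by
    have hb : HasDerivAt (bar1 n a ε) (bar2 n a ε s0) (quad s0 c 0) := by
      rw [quad_zero]; exact hasDerivAt_bar1 n a ε hs0
    exact hb.comp 0 (hasDerivAt_quad s0 c 0)
  have h2 : HasDerivAt (fun t : ℝ => 2 * c + 2 * t) 2 0 := by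
    have h := ((hasDerivAt_id (0:ℝ)).const_mul 2).const_add (2 * c)
    refine h.congr_deriv ?_
    simp
  have h3 := h1.mul h2
  refine h3.congr_deriv ?_
  rw [quad_zero]
  ring

end Vale.Agent.Lib.P100.H28
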