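import Vale.Agent.Lib.P100.H28.Barrier

/-!
# P100 (helper28): the inequality at an interior local minimum of `u + barrier`
-/

namespace Vale.Agent.Lib.P100.H28

open Filter Topology Set

theorem norm_add_smul_single_sq {n : ℕ} (x0 : EuclideanSpace ℝ (Fin n)) (i : Fin n) (t : ℝ) :
    ‖x0 + t • EuclideanSpace.single i (1:ℝ)‖ ^ 2 = quad (‖x0‖ ^ 2) (x0 i) t := by
  rw [norm_add_sq_real, real_inner_smul_right, EuclideanSpace.inner_single_right, norm_smul,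
    PiLp.norm_single]
  simp [quad]
  ring

theorem hasDerivAt_path {n : ℕ} (x0 e : EuclideanSpace ℝ (Fin n)) (t : ℝ) :
    HasDerivAt (fun t : ℝ => x0 + t • e) e t := by
  have h := ((hasDerivAt_id t).smul_const e).const_add x0
  simpa using h

theorem isOpen_ne_zero {n : ℕ} : IsOpen {x : EuclideanSpace ℝ (Fin n) | x ≠ 0} :=
  isOpen_ne

/-- Directional second-derivative inequality at a local minimum of `u + barrier`. -/
theorem dir_second_nonneg {n : ℕ} (u : EuclideanSpace ℝ (Fin n) → ℝ)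
    (hu : ContDiffOn ℝ 2 u {x | x ≠ 0}) (x0 : EuclideanSpace ℝ (Fin n)) (hx0 : x0 ≠ 0)
    (a ε : ℝ) (hmin : IsLocalMin (fun x => u x + bar n a ε (‖x‖ ^ 2)) x0) (i : Fin n) :
    0 ≤ fderiv ℝ (fderiv ℝ u) x0 (EuclideanSpace.single i (1:ℝ)) (EuclideanSpace.single i (1:ℝ))
      + (bar2 n a ε (‖x0‖ ^ 2) * (2 * x0 i) ^ 2 + bar1 n a ε (‖x0‖ ^ 2) * 2) := by
  set e : EuclideanSpace ℝ (Fin n) := EuclideanSpace.single i (1:ℝ) with he
  set γ : ℝ → EuclideanSpace ℝ (Fin n) := fun t => x0 + t • e with hγ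
  have hγ0 : γ 0 = x0 := by simp [hγ]
  have hs0 : 0 < ‖x0‖ ^ 2 := by positivity
  have hγd : ∀ t, HasDerivAt γ e t := fun t => hasDerivAt_path x0 e t
  have hγne : ∀ᶠ t in 𝓝 (0:ℝ), γ t ≠ 0 :=
    (hγd 0).continuousAt.eventually_ne (by rw [hγ0]; exact hx0)
  have hqpos : ∀ᶠ t in 𝓝 (0:ℝ), 0 < quad (‖x0‖ ^ 2) (x0 i) t :=
    eventually_quad_pos (x0 i) hs0
  -- first derivative of the restriction
  have hfirst : ∀ᶠ t in 𝓝 (0:ℝ),
      HasDerivAt (fun t => u (γ t) + bar n a ε (quad (‖x0‖ ^ 2) (x0 i) t))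
        (fderiv ℝ u (γ t) e +
          bar1 n a ε (quad (‖x0‖ ^ 2) (x0 i) t) * (2 * x0 i + 2 * t)) t := by
    filter_upwards [hγne, hqpos] with t h1 h2
    have hd : DifferentiableAt ℝ u (γ t) :=
      (hu.differentiableOn (by norm_num)).differentiableAt (isOpen_ne_zero.mem_nhds h1)
    exact (hd.hasFDerivAt.comp_hasDerivAt t (hγd t)).add (hasDerivAt_bar_quad n a ε _ _ h2)
  -- second derivative at zero
  have hD : DifferentiableAt ℝ (fderiv ℝ u) x0 :=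
    ((hu.fderiv_of_isOpen isOpen_ne_zero (m := 1) (by norm_num)).differentiableOn
      (by norm_num)).differentiableAt (isOpen_ne_zero.mem_nhds hx0)
  have hD' : HasFDerivAt (fderiv ℝ u) (fderiv ℝ (fderiv ℝ u) x0) (γ 0) := by
    rw [hγ0]; exact hD.hasFDerivAt
  have h1 : HasDerivAt (fun t => fderiv ℝ u (γ t)) (fderiv ℝ (fderiv ℝ u) x0 e) 0 :=
    hD'.comp_hasDerivAt 0 (hγd 0)
  have h2 : HasDerivAt (fun t => fderiv ℝ u (γ t) e) (fderiv ℝ (fderiv ℝ u) x0 e e) 0 := by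
    have h := h1.clm_apply (hasDerivAt_const (0:ℝ) e)
    simpa using h
  have hsecond := h2.add (hasDerivAt_bar1_quad n a ε (x0 i) hs0)
  -- the restriction has a local minimum at zero
  have hmin' : IsLocalMin (fun t => u (γ t) + bar n a ε (quad (‖x0‖ ^ 2) (x0 i) t)) 0 := by
    have hm : IsLocalMin (fun x => u x + bar n a ε (‖x‖ ^ 2)) (γ 0) := by rw [hγ0]; exact hmin
    have := hm.comp_continuous (hγd 0).continuousAt
    have heq : (fun x => u x + bar n a ε (‖x‖ ^ 2)) ∘ γ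
        = fun t => u (γ t) + bar n a ε (quad (‖x0‖ ^ 2) (x0 i) t) := by
      funext t
      simp only [Function.comp_apply, hγ, he, norm_add_smul_single_sq]
    rw [heq] at this
    exact this
  exact second_deriv_nonneg_of_isLocalMin hfirst hsecond hmin'

theorem laplacian_eq_sum_single {n : ℕ} (u : EuclideanSpace ℝ (Fin n) → ℝ)
    (x0 : EuclideanSpace ℝ (Fin n)) :
    Laplacian.laplacian u x0 = ∑ i : Fin n,
      fderiv ℝ (fderiv ℝ u) x0 (EuclideanSpace.single i (1:ℝ)) (EuclideanSpace.single i (1:ℝ)) := by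
  rw [InnerProductSpace.laplacian_eq_iteratedFDeriv_orthonormalBasis u
    (EuclideanSpace.basisFun (Fin n) ℝ)]
  simp [iteratedFDeriv_two_apply]

/-- At a local minimum `x0 ≠ 0` of `u + a log ‖x‖² + ε ‖x‖^(2-n)` one has
`0 ≤ Δ u (x0) + 2 a (n - 2) / ‖x0‖²`. -/
theorem laplacian_add_nonneg {n : ℕ} (u : EuclideanSpace ℝ (Fin n) → ℝ)
    (hu : ContDiffOn ℝ 2 u {x | x ≠ 0}) (x0 : EuclideanSpace ℝ (Fin n)) (hx0 : x0 ≠ 0)
    (a ε : ℝ) (hmin : IsLocalMin (fun x => u x + bar n a ε (‖x‖ ^ 2)) x0) :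
    0 ≤ Laplacian.laplacian u x0 + 2 * a * ((n:ℝ) - 2) / ‖x0‖ ^ 2 := by
  have hsum : 0 ≤ ∑ i : Fin n,
      (fderiv ℝ (fderiv ℝ u) x0 (EuclideanSpace.single i (1:ℝ)) (EuclideanSpace.single i (1:ℝ))
      + (bar2 n a ε (‖x0‖ ^ 2) * (2 * x0 i) ^ 2 + bar1 n a ε (‖x0‖ ^ 2) * 2)) :=
    Finset.sum_nonneg (fun i _ => dir_second_nonneg u hu x0 hx0 a ε hmin i)
  rw [Finset.sum_add_distrib, ← laplacian_eq_sum_single, Finset.sum_add_distrib,
    ← Finset.mul_sum] at hsum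
  have hsq : ∑ i : Fin n, (2 * x0 i) ^ 2 = 4 * ‖x0‖ ^ 2 := by
    rw [EuclideanSpace.real_norm_sq_eq, Finset.mul_sum]
    refine Finset.sum_congr rfl (fun i _ => ?_)
    ring
  rw [hsq] at hsum
  simp only [Finset.sum_const, Finset.card_univ, Fintype.card_fin, nsmul_eq_mul] at hsum
  have hs0 : 0 < ‖x0‖ ^ 2 := by positivity
  set s0 := ‖x0‖ ^ 2 with hs0def
  have hpow : s0 ^ ((2 - (n:ℝ)) / 2 - 1) = s0 ^ ((2 - (n:ℝ)) / 2 - 1 - 1) * s0 := by
    have := Real.rpow_add_one hs0.ne' ((2 - (n:ℝ)) / 2 - 1 - 1)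
    rw [← this]
    congr 1
    ring
  have key : bar2 n a ε s0 * (4 * s0) + (n:ℝ) * (bar1 n a ε s0 * 2)
      = 2 * a * ((n:ℝ) - 2) / s0 := by
    unfold bar1 bar2
    rw [hpow]
    field_simp
    ring
  linarith

end Vale.Agent.Lib.P100.H28
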