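import Vale.Agent.Lib.P100.H28.Annulus

/-!
# P100 (helper28): a positive function with `Δ u ≤ -c / ‖x‖²` near the origin is unbounded
-/

namespace Vale.Agent.Lib.P100.H28

open Filter Topology Set

/-- `(r²)^((2-n)/2) ≥ 1/r` for `0 < r ≤ 1` and `n ≥ 3`. -/
theorem rpow_barrier_lower {n : ℕ} (hn : 3 ≤ n) {r : ℝ} (hr : 0 < r) (hr1 : r ≤ 1) :
    r⁻¹ ≤ (r ^ 2) ^ ((2 - (n:ℝ)) / 2) := by
  have hn' : (3:ℝ) ≤ (n:ℝ) := by exact_mod_cast hn
  have h2 : 0 < r ^ 2 := by positivity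
  have h21 : r ^ 2 ≤ 1 := by nlinarith
  have h1 : (r ^ 2) ^ (-(1/2) : ℝ) ≤ (r ^ 2) ^ ((2 - (n:ℝ)) / 2) :=
    Real.rpow_le_rpow_of_exponent_ge h2 h21 (by linarith)
  have h3 : (r ^ 2) ^ (-(1/2) : ℝ) = r⁻¹ := by
    rw [Real.rpow_neg h2.le, ← Real.sqrt_eq_rpow, Real.sqrt_sq hr.le]
  rw [h3] at h1
  exact h1

/-- Lower bound `κ (log ρ - log ‖x‖) ≤ u x` near the origin. -/
theorem singular_lower {n : ℕ} (hn : 3 ≤ n) (u : EuclideanSpace ℝ (Fin n) → ℝ)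
    (hu : ContDiffOn ℝ 2 u {x | x ≠ 0})
    (hpos : ∀ x : EuclideanSpace ℝ (Fin n), x ≠ 0 → 0 < u x)
    (ρ c : ℝ) (hρ : 0 < ρ) (hρ1 : ρ ≤ 1) (hc : 0 < c)
    (hlap : ∀ x : EuclideanSpace ℝ (Fin n), x ≠ 0 → ‖x‖ ≤ ρ →
      Laplacian.laplacian u x ≤ -c / ‖x‖ ^ 2)
    (x : EuclideanSpace ℝ (Fin n)) (hx : x ≠ 0) (hxρ : ‖x‖ < ρ) :
    c / (2 * ((n:ℝ) - 2)) * (Real.log ρ - Real.log ‖x‖) ≤ u x := by
  have hn' : (3:ℝ) ≤ (n:ℝ) := by exact_mod_cast hn
  have hn2 : 0 < (n:ℝ) - 2 := by linarith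
  set κ := c / (2 * ((n:ℝ) - 2)) with hκ
  have hκpos : 0 < κ := by positivity
  have hxpos : 0 < ‖x‖ := norm_pos_iff.mpr hx
  have hsup : ∀ y : EuclideanSpace ℝ (Fin n), y ≠ 0 → ‖y‖ ≤ ρ →
      Laplacian.laplacian u y + 2 * (κ / 2) * ((n:ℝ) - 2) / ‖y‖ ^ 2 < 0 := by
    intro y hy hyρ
    have hypos : 0 < ‖y‖ ^ 2 := by have := norm_pos_iff.mpr hy; positivity
    have h1 := hlap y hy hyρ
    have h2 : 2 * (κ / 2) * ((n:ℝ) - 2) / ‖y‖ ^ 2 = (c / 2) / ‖y‖ ^ 2 := by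
      rw [hκ]; field_simp
    rw [h2]
    have h3 : -c / ‖y‖ ^ 2 + (c / 2) / ‖y‖ ^ 2 < 0 := by
      have : -c / ‖y‖ ^ 2 + (c / 2) / ‖y‖ ^ 2 = -(c / 2) / ‖y‖ ^ 2 := by ring
      rw [this]
      exact div_neg_of_neg_of_pos (by linarith) hypos
    linarith
  refine le_of_forall_pos_le_add (fun η hη => ?_)
  -- the coefficient of the second barrier
  have hPpos : 0 < (‖x‖ ^ 2) ^ ((2 - (n:ℝ)) / 2) := Real.rpow_pos_of_pos (by positivity) _
  set ε := η / (‖x‖ ^ 2) ^ ((2 - (n:ℝ)) / 2) with hε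
  have hεpos : 0 < ε := div_pos hη hPpos
  have hεP : ε * (‖x‖ ^ 2) ^ ((2 - (n:ℝ)) / 2) = η := by
    rw [hε]; field_simp
  -- the inner radius
  set y := min 1 (min (ε / (2 * κ)) (‖x‖ / 2)) with hy
  have hypos : 0 < y := by
    rw [hy]
    refine lt_min one_pos (lt_min (by positivity) (by positivity))
  have hy1 : y ≤ 1 := min_le_left _ _
  have hy2 : y ≤ ε / (2 * κ) := (min_le_right _ _).trans (min_le_left _ _)
  have hy3 : y ≤ ‖x‖ / 2 := (min_le_right _ _).trans (min_le_right _ _)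
  set r := y ^ 2 with hr
  have hrpos : 0 < r := by positivity
  have hry : r ≤ y := by rw [hr]; nlinarith
  have hr1 : r ≤ 1 := hry.trans hy1
  have hrx : r < ‖x‖ := by linarith
  have hlogρ : Real.log ρ ≤ 0 := Real.log_nonpos hρ.le hρ1
  -- boundary values
  have hb2 : ∀ z : EuclideanSpace ℝ (Fin n), ‖z‖ = ρ →
      κ * Real.log ρ ≤ u z + bar n (κ / 2) ε (‖z‖ ^ 2) := by
    intro z hz
    have hz0 : z ≠ 0 := by
      intro h0; rw [h0, norm_zero] at hz; linarith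
    have h1 : 0 ≤ ε * (ρ ^ 2) ^ ((2 - (n:ℝ)) / 2) :=
      mul_nonneg hεpos.le (Real.rpow_nonneg (by positivity) _)
    unfold bar
    rw [hz, Real.log_pow]
    have := hpos z hz0
    push_cast
    linarith
  have hb1 : ∀ z : EuclideanSpace ℝ (Fin n), ‖z‖ = r →
      κ * Real.log ρ ≤ u z + bar n (κ / 2) ε (‖z‖ ^ 2) := by
    intro z hz
    have hz0 : z ≠ 0 := by
      intro h0; rw [h0, norm_zero] at hz; linarith
    have h1 : r⁻¹ ≤ (r ^ 2) ^ ((2 - (n:ℝ)) / 2) := rpow_barrier_lower hn hrpos hr1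
    have h2 : 1 - y⁻¹ ≤ Real.log y := Real.one_sub_inv_le_log_of_pos hypos
    have h3 : Real.log r = 2 * Real.log y := by
      rw [hr, Real.log_pow]; push_cast; ring
    have h4 : 0 ≤ κ * (2 * (1 - y⁻¹)) + ε * r⁻¹ := by
      have hyk : 2 * κ * y ≤ ε := by
        have := (le_div_iff₀ (by positivity : (0:ℝ) < 2 * κ)).mp hy2
        linarith
      have : κ * (2 * (1 - y⁻¹)) + ε * r⁻¹ = 2 * κ + (ε - 2 * κ * y) / y ^ 2 := by
        rw [hr]; field_simp; ring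
      rw [this]
      have : 0 ≤ (ε - 2 * κ * y) / y ^ 2 := div_nonneg (by linarith) (by positivity)
      linarith
    unfold bar
    rw [hz, Real.log_pow, h3]
    have h5 : ε * r⁻¹ ≤ ε * (r ^ 2) ^ ((2 - (n:ℝ)) / 2) := mul_le_mul_of_nonneg_left h1 hεpos.le
    have h6 : κ * (2 * (1 - y⁻¹)) ≤ κ * (2 * Real.log y) := by
      apply mul_le_mul_of_nonneg_left _ hκpos.le
      linarith
    have h7 := hpos z hz0
    have h8 : κ * Real.log ρ ≤ 0 := mul_nonpos_of_nonneg_of_nonpos hκpos.le hlogρ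
    push_cast
    linarith
  have h := annulus_min u hu (κ / 2) ε (κ * Real.log ρ) r ρ hrpos
    (fun z hz1 hz2 => hsup z (by
      intro h0; rw [h0, norm_zero] at hz1; linarith) hz2.le)
    hb1 hb2 x hrx.le hxρ.le
  unfold bar at h
  rw [hεP, Real.log_pow] at h
  push_cast at h
  linarith

/-- A positive function, continuous at the origin, cannot satisfy `Δ u ≤ -c / ‖x‖²`
in a punctured neighbourhood of the origin when `n ≥ 3`. -/
theorem singular_false {n : ℕ} (hn : 3 ≤ n) (u : EuclideanSpace ℝ (Fin n) → ℝ)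
    (hu : ContDiffOn ℝ 2 u {x | x ≠ 0}) (huc : Continuous u)
    (hpos : ∀ x : EuclideanSpace ℝ (Fin n), x ≠ 0 → 0 < u x)
    (ρ c : ℝ) (hρ : 0 < ρ) (hρ1 : ρ ≤ 1) (hc : 0 < c)
    (hlap : ∀ x : EuclideanSpace ℝ (Fin n), x ≠ 0 → ‖x‖ ≤ ρ →
      Laplacian.laplacian u x ≤ -c / ‖x‖ ^ 2) : False := by
  have hn' : (3:ℝ) ≤ (n:ℝ) := by exact_mod_cast hn
  have hn2 : 0 < (n:ℝ) - 2 := by linarith
  set κ := c / (2 * ((n:ℝ) - 2)) with hκ
  have hκpos : 0 < κ := by positivity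
  -- an upper bound for u on the closed ball
  obtain ⟨M, hM⟩ : ∃ M, ∀ x ∈ Metric.closedBall (0 : EuclideanSpace ℝ (Fin n)) ρ, u x ≤ M := by
    have hcomp : IsCompact (Metric.closedBall (0 : EuclideanSpace ℝ (Fin n)) ρ) :=
      isCompact_closedBall 0 ρ
    obtain ⟨xM, _, hmax⟩ := hcomp.exists_isMaxOn ⟨0, Metric.mem_closedBall_self hρ.le⟩
      huc.continuousOn
    exact ⟨u xM, fun x hx => hmax hx⟩
  set M' := max M 0 with hM'
  have hM'0 : 0 ≤ M' := le_max_right _ _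
  set t := ρ * Real.exp (-(M' + 1) / κ) with ht
  have hexp1 : Real.exp (-(M' + 1) / κ) < 1 := by
    have hlt : -(M' + 1) / κ < 0 := div_neg_of_neg_of_pos (by linarith) hκpos
    have := Real.exp_lt_exp.mpr hlt
    rwa [Real.exp_zero] at this
  have htpos : 0 < t := by positivity
  have htρ : t < ρ := by
    rw [ht]; nlinarith [Real.exp_pos (-(M' + 1) / κ)]
  have i0 : Fin n := ⟨0, by omega⟩
  set x1 : EuclideanSpace ℝ (Fin n) := EuclideanSpace.single i0 t with hx1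
  have hnorm : ‖x1‖ = t := by
    rw [hx1, PiLp.norm_single, Real.norm_eq_abs, abs_of_pos htpos]
  have hx10 : x1 ≠ 0 := by
    intro h0; rw [h0, norm_zero] at hnorm; linarith
  have h := singular_lower hn u hu hpos ρ c hρ hρ1 hc hlap x1 hx10 (by rw [hnorm]; exact htρ)
  rw [hnorm, ht, Real.log_mul hρ.ne' (Real.exp_pos _).ne', Real.log_exp] at h
  have h2 : κ * (Real.log ρ - (Real.log ρ + -(M' + 1) / κ)) = M' + 1 := by
    field_simp
    ring
  rw [← hκ, h2] at h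
  have h3 : u x1 ≤ M := hM x1 (by
    rw [Metric.mem_closedBall, dist_zero_right, hnorm]; exact htρ.le)
  have h4 : M ≤ M' := le_max_left _ _
  linarith

end Vale.Agent.Lib.P100.H28
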