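import Vale.Agent.Lib.P100.H28.Planar
import Vale.Agent.Lib.P100.H28.Singular

/-!
# P100 (helper28): the degenerate ranges of the Henon-Lane-Emden system
-/

namespace Vale.Agent.Lib.P100.H28

open Filter Topology Set

/-- For `n ≥ 3` and a weight exponent `A ≤ -2`, the single equation
`-Δ u = |x|^A v^p` on the punctured space has no solution `u > 0` continuous on the
whole space when `v` is positive and continuous. -/
theorem singular_weight_false {n : ℕ} (hn : 3 ≤ n) (p A : ℝ) (hp : 0 < p) (hA : A ≤ -2)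
    (u v : EuclideanSpace ℝ (Fin n) → ℝ)
    (hu : ContDiffOn ℝ 2 u {x | x ≠ 0}) (huc : Continuous u) (hvc : Continuous v)
    (hupos : ∀ x, 0 < u x) (hvpos : ∀ x, 0 < v x)
    (hequ : ∀ x, x ≠ 0 → -(Laplacian.laplacian u x) = ‖x‖ ^ A * v x ^ p) : False := by
  have hv0 : 0 < v 0 := hvpos 0
  have hev : ∀ᶠ x in 𝓝 (0 : EuclideanSpace ℝ (Fin n)), v 0 / 2 < v x :=
    hvc.continuousAt.eventually (lt_mem_nhds (by linarith))
  obtain ⟨ρ0, hρ0, hball⟩ := Metric.eventually_nhds_iff.mp hev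
  set c := (v 0 / 2) ^ p with hc
  have hcpos : 0 < c := Real.rpow_pos_of_pos (by linarith) p
  set ρ := min (ρ0 / 2) 1 with hρ
  have hρpos : 0 < ρ := lt_min (by linarith) one_pos
  have hρ1 : ρ ≤ 1 := min_le_right _ _
  have hρ0' : ρ < ρ0 := lt_of_le_of_lt (min_le_left _ _) (by linarith)
  refine singular_false hn u hu huc (fun x _ => hupos x) ρ c hρpos hρ1 hcpos ?_
  intro x hx hxρ
  have hxpos : 0 < ‖x‖ := norm_pos_iff.mpr hx
  have hx1 : ‖x‖ ≤ 1 := hxρ.trans hρ1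
  have h1 : ‖x‖ ^ (-2 : ℝ) ≤ ‖x‖ ^ A := Real.rpow_le_rpow_of_exponent_ge hxpos hx1 hA
  have h2 : ‖x‖ ^ (-2 : ℝ) = (‖x‖ ^ 2)⁻¹ := by
    rw [Real.rpow_neg hxpos.le, Real.rpow_two]
  have h3 : c ≤ v x ^ p := by
    apply Real.rpow_le_rpow (by linarith) _ hp.le
    have := hball (y := x) (by rw [dist_zero_right]; linarith)
    linarith
  have h4 := hequ x hx
  have h5 : (‖x‖ ^ 2)⁻¹ * c ≤ ‖x‖ ^ A * v x ^ p := by
    rw [← h2]
    exact mul_le_mul h1 h3 hcpos.le (Real.rpow_nonneg hxpos.le A)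
  have h6 : -c / ‖x‖ ^ 2 = -((‖x‖ ^ 2)⁻¹ * c) := by
    field_simp
  rw [h6]
  linarith

/-- The Henon-Lane-Emden system has no positive entire solution when `n = 2`, or
`A ≤ -2`, or `B ≤ -2`. -/
theorem degenerate_ranges (n : ℕ) (hn : 2 ≤ n) (p q A B : ℝ) (hp : 0 < p) (hq : 0 < q)
    (hdeg : n = 2 ∨ A ≤ -2 ∨ B ≤ -2)
    (u v : EuclideanSpace ℝ (Fin n) → ℝ)
    (hu : ContDiffOn ℝ 2 u {x | x ≠ 0}) (hv : ContDiffOn ℝ 2 v {x | x ≠ 0})
    (huc : Continuous u) (hvc : Continuous v)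
    (hupos : ∀ x, 0 < u x) (hvpos : ∀ x, 0 < v x)
    (hequ : ∀ x, x ≠ 0 → -(Laplacian.laplacian u x) = ‖x‖ ^ A * v x ^ p)
    (heqv : ∀ x, x ≠ 0 → -(Laplacian.laplacian v x) = ‖x‖ ^ B * u x ^ q) : False := by
  by_cases h2 : n = 2
  · subst h2
    refine planar_superharmonic_false u hu (fun x _ => hupos x) ?_
    intro x hx
    have := hequ x hx
    have hpos : 0 < ‖x‖ ^ A * v x ^ p :=
      mul_pos (Real.rpow_pos_of_pos (norm_pos_iff.mpr hx) A) (Real.rpow_pos_of_pos (hvpos x) p)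
    linarith
  · have hn3 : 3 ≤ n := by omega
    rcases hdeg with h | h | h
    · exact absurd h h2
    · exact singular_weight_false hn3 p A hp h u v hu huc hvc hupos hvpos hequ
    · exact singular_weight_false hn3 q B hq h v u hv hvc huc hvpos hupos heqv

end Vale.Agent.Lib.P100.H28
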