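import Mathlib

/-!
# P100 (helper28): the second-derivative condition at a local minimum on the line
-/

namespace Vale.Agent.Lib.P100.H28

open Filter Topology Set

/-- If `g` has derivative `g' t` at all `t` near `0`, `g'` has derivative `g2` at `0`
and `g` has a local minimum at `0`, then `0 ≤ g2`. -/
theorem second_deriv_nonneg_of_isLocalMin {g g' : ℝ → ℝ} {g2 : ℝ}
    (hg : ∀ᶠ t in 𝓝 (0:ℝ), HasDerivAt g (g' t) t) (hg' : HasDerivAt g' g2 0)
    (hmin : IsLocalMin g 0) : 0 ≤ g2 := by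
  by_contra hneg
  have hneg : g2 < 0 := not_le.mp hneg
  have h0 : g' 0 = 0 := hmin.hasDerivAt_eq_zero hg.self_of_nhds
  have hslope : ∀ᶠ t in 𝓝[≠] (0:ℝ), slope g' 0 t < 0 :=
    (hasDerivAt_iff_tendsto_slope.mp hg').eventually (gt_mem_nhds hneg)
  rw [eventually_nhdsWithin_iff] at hslope
  have hall : ∀ᶠ t in 𝓝 (0:ℝ), HasDerivAt g (g' t) t ∧ g 0 ≤ g t ∧
      (t ∈ ({0}ᶜ : Set ℝ) → slope g' 0 t < 0) := by
    filter_upwards [hg, hmin, hslope] with t h1 h2 h3
    exact ⟨h1, h2, h3⟩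
  obtain ⟨δ, hδ, hall⟩ := Metric.eventually_nhds_iff.mp hall
  have hb : (0:ℝ) < δ / 2 := by positivity
  have hin : ∀ t ∈ Icc (0:ℝ) (δ / 2), dist t 0 < δ := by
    intro t ht
    rw [Real.dist_eq, sub_zero, abs_of_nonneg ht.1]
    linarith [ht.2]
  have hcont : ContinuousOn g (Icc 0 (δ / 2)) := fun t ht =>
    (hall (hin t ht)).1.continuousAt.continuousWithinAt
  obtain ⟨c, hc, hceq⟩ := exists_hasDerivAt_eq_slope g g' hb hcont
    (fun t ht => (hall (hin t ⟨ht.1.le, ht.2.le⟩)).1)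
  have hcin : dist c 0 < δ := hin c ⟨hc.1.le, hc.2.le⟩
  have hcneg : g' c < 0 := by
    have hs := (hall hcin).2.2 (by simpa using hc.1.ne')
    rw [slope_def_field, h0, sub_zero, sub_zero] at hs
    by_contra hge
    have hge : 0 ≤ g' c := not_lt.mp hge
    have : 0 ≤ g' c / c := div_nonneg hge hc.1.le
    linarith
  have hle : g 0 ≤ g (δ / 2) := (hall (hin (δ / 2) ⟨hb.le, le_refl _⟩)).2.1
  rw [hceq, sub_zero] at hcneg
  have : 0 ≤ (g (δ / 2) - g 0) / (δ / 2) := div_nonneg (by linarith) hb.le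
  linarith

end Vale.Agent.Lib.P100.H28
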