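import Vale.Agent.Lib.P100.H28.Annulus

/-!
# P100 (helper28): no positive strictly superharmonic function on the punctured plane
-/

namespace Vale.Agent.Lib.P100.H28

open Filter Topology Set

theorem bar_zero_eps (n : ℕ) (a s : ℝ) : bar n a 0 s = a * Real.log s := by
  simp [bar]

/-- Comparison on the annulus between the unit circle and the circle of radius
`exp (lam * l)`, where `l = log ‖x‖`. -/
theorem planar_compare (u : EuclideanSpace ℝ (Fin 2) → ℝ)
    (hu : ContDiffOn ℝ 2 u {x | x ≠ 0})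
    (hpos : ∀ x : EuclideanSpace ℝ (Fin 2), x ≠ 0 → 0 < u x)
    (hlap : ∀ x : EuclideanSpace ℝ (Fin 2), x ≠ 0 → Laplacian.laplacian u x < 0)
    (m : ℝ) (hm : ∀ y : EuclideanSpace ℝ (Fin 2), ‖y‖ = 1 → m ≤ u y)
    (x : EuclideanSpace ℝ (Fin 2)) (hx : x ≠ 0) (hx1 : ‖x‖ ≠ 1) (lam : ℝ) (hlam : 1 < lam) :
    m ≤ u x + m / lam := by
  have hxpos : 0 < ‖x‖ := norm_pos_iff.mpr hx
  set l := Real.log ‖x‖ with hl
  have hl0 : l ≠ 0 := Real.log_ne_zero_of_pos_of_ne_one hxpos hx1
  set ρ := Real.exp (lam * l) with hρ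
  have hρpos : 0 < ρ := Real.exp_pos _
  set a := m / (2 * (lam * l)) with ha
  have hlam0 : lam ≠ 0 := by linarith
  have hsup : ∀ y : EuclideanSpace ℝ (Fin 2), y ≠ 0 →
      Laplacian.laplacian u y + 2 * a * (((2:ℕ):ℝ) - 2) / ‖y‖ ^ 2 < 0 := by
    intro y hy
    have : 2 * a * (((2:ℕ):ℝ) - 2) / ‖y‖ ^ 2 = 0 := by norm_num
    rw [this, add_zero]
    exact hlap y hy
  have hb1 : ∀ y : EuclideanSpace ℝ (Fin 2), ‖y‖ = 1 → m ≤ u y + bar 2 a 0 (‖y‖ ^ 2) := by
    intro y hy
    rw [bar_zero_eps, hy]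
    simpa using hm y hy
  have hbρ : ∀ y : EuclideanSpace ℝ (Fin 2), ‖y‖ = ρ → m ≤ u y + bar 2 a 0 (‖y‖ ^ 2) := by
    intro y hy
    have hy0 : y ≠ 0 := by
      intro h0
      rw [h0, norm_zero] at hy
      linarith
    rw [bar_zero_eps, hy, Real.log_pow, hρ, Real.log_exp, ha]
    have : m / (2 * (lam * l)) * (((2:ℕ):ℝ) * (lam * l)) = m := by
      field_simp
      norm_num
    rw [this]
    linarith [hpos y hy0]
  have hval : bar 2 a 0 (‖x‖ ^ 2) = m / lam := by
    rw [bar_zero_eps, Real.log_pow, ← hl, ha]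
    field_simp
    norm_num
  rcases lt_or_gt_of_ne hl0 with hneg | hpos'
  · -- ‖x‖ < 1, annulus between ρ and 1
    have hρx : ρ < ‖x‖ := by
      have : lam * l < l := by nlinarith
      calc ρ = Real.exp (lam * l) := rfl
        _ < Real.exp l := Real.exp_lt_exp.mpr this
        _ = ‖x‖ := Real.exp_log hxpos
    have hx1' : ‖x‖ < 1 := by
      have := Real.exp_lt_exp.mpr hneg
      rwa [hl, Real.exp_log hxpos, Real.exp_zero] at this
    have h := annulus_min u hu a 0 m ρ 1 hρpos
      (fun y hy1 _ => hsup y (by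
        intro h0; rw [h0, norm_zero] at hy1; linarith))
      hbρ hb1 x hρx.le hx1'.le
    rwa [hval] at h
  · -- ‖x‖ > 1, annulus between 1 and ρ
    have hρx : ‖x‖ < ρ := by
      have : l < lam * l := by nlinarith
      calc ‖x‖ = Real.exp l := (Real.exp_log hxpos).symm
        _ < Real.exp (lam * l) := Real.exp_lt_exp.mpr this
        _ = ρ := rfl
    have hx1' : 1 < ‖x‖ := by
      have := Real.exp_lt_exp.mpr hpos'
      rwa [hl, Real.exp_log hxpos, Real.exp_zero] at this
    have h := annulus_min u hu a 0 m 1 ρ one_pos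
      (fun y hy1 _ => hsup y (by
        intro h0; rw [h0, norm_zero] at hy1; linarith))
      hb1 hbρ x hx1'.le hρx.le
    rwa [hval] at h

/-- There is no positive `C²` function on the punctured plane with negative Laplacian. -/
theorem planar_superharmonic_false (u : EuclideanSpace ℝ (Fin 2) → ℝ)
    (hu : ContDiffOn ℝ 2 u {x | x ≠ 0})
    (hpos : ∀ x : EuclideanSpace ℝ (Fin 2), x ≠ 0 → 0 < u x)
    (hlap : ∀ x : EuclideanSpace ℝ (Fin 2), x ≠ 0 → Laplacian.laplacian u x < 0) : False := by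
  -- minimum over the unit circle
  have hScomp : IsCompact (Metric.sphere (0 : EuclideanSpace ℝ (Fin 2)) 1) := isCompact_sphere 0 1
  have hSne : (Metric.sphere (0 : EuclideanSpace ℝ (Fin 2)) 1).Nonempty := by
    refine ⟨EuclideanSpace.single 0 (1:ℝ), ?_⟩
    simp [PiLp.norm_single]
  have hSsub : ∀ y ∈ Metric.sphere (0 : EuclideanSpace ℝ (Fin 2)) 1, y ≠ 0 := by
    intro y hy h0
    rw [h0] at hy
    simp at hy
  have hcont : ContinuousOn u (Metric.sphere (0 : EuclideanSpace ℝ (Fin 2)) 1) :=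
    hu.continuousOn.mono hSsub
  obtain ⟨xm, hxm, hmin⟩ := hScomp.exists_isMinOn hSne hcont
  have hxm0 : xm ≠ 0 := hSsub xm hxm
  set m := u xm with hm
  have hmpos : 0 < m := hpos xm hxm0
  have hmS : ∀ y : EuclideanSpace ℝ (Fin 2), ‖y‖ = 1 → m ≤ u y := by
    intro y hy
    exact hmin (by simpa [Metric.mem_sphere, dist_zero_right] using hy)
  -- u ≥ m everywhere off the origin
  have hglobal : ∀ x : EuclideanSpace ℝ (Fin 2), x ≠ 0 → m ≤ u x := by
    intro x hx
    by_cases hx1 : ‖x‖ = 1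
    · exact hmS x hx1
    refine le_of_forall_pos_le_add (fun η hη => ?_)
    have hlam : 1 < m / η + 1 := by
      have : 0 < m / η := div_pos hmpos hη
      linarith
    have h := planar_compare u hu hpos hlap m hmS x hx hx1 (m / η + 1) hlam
    have hle : m / (m / η + 1) ≤ η := by
      rw [div_le_iff₀ (by linarith)]
      have : η * (m / η + 1) = m + η := by field_simp
      rw [this]
      linarith
    linarith
  -- contradiction at the minimum point
  have hloc : IsLocalMin (fun x => u x + bar 2 0 0 (‖x‖ ^ 2)) xm := by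
    have : ∀ᶠ y in 𝓝 xm, y ≠ 0 := isOpen_ne_zero.mem_nhds hxm0
    filter_upwards [this] with y hy
    simp only [bar_zero_eps, zero_mul, add_zero]
    exact hglobal y hy
  have h := laplacian_add_nonneg u hu xm hxm0 0 0 hloc
  have h2 := hlap xm hxm0
  simp only [mul_zero, zero_mul, zero_div, add_zero] at h
  linarith

end Vale.Agent.Lib.P100.H28
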